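import Vale.Agent.P097.TC.Defs5

/-!
# P097 / case [c] : from sequences to a box
-/

set_option linter.all false

open Complex Metric Filter Topology Set MeasureTheory

namespace Vale.Agent.P097.H74

open Vale.Agent.P097.TC Vale.Agent.P097.A5

/-- no bad sequence outside a null set of labels ==> a box without bad points, for a.e. label -/
theorem exists_box {A : Set ℝ} {y₀ u₀ : ℝ} {N : ℝ → ℝ → Prop} {G : ℝ → Prop}
    (hG : ∀ᵐ u : ℝ, u ∈ A → G u)
    (h : ∀ y u : ℕ → ℝ, Sq A y₀ u₀ y u → (∀ n, |y n - y₀| < 1 / ((n : ℝ) + 1)) →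
      (∀ n, G (u n)) → ¬ ∀ n, N (u n) (y n)) :
    ∃ d > 0, ∀ᵐ u : ℝ, u ∈ A → |u - u₀| < d → ∀ y : ℝ, |y - y₀| < d → ¬ N u y := by
  by_contra hcon
  push Not at hcon
  have h1 : ∀ n : ℕ, ∃ u y : ℝ, u ∈ A ∧ |u - u₀| < 1 / ((n : ℝ) + 1) ∧
      |y - y₀| < 1 / ((n : ℝ) + 1) ∧ N u y ∧ G u := by
    intro n
    have h2 := hcon (1 / ((n : ℝ) + 1)) (by positivity)
    rw [Filter.frequently_iff_forall_eventually_exists_and] at h2
    obtain ⟨u, h3, h4⟩ := h2 hG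
    obtain ⟨h5, h6, y, h7, h8⟩ := h3
    exact ⟨u, y, h5, h6, h7, h8, h4 h5⟩
  choose u y a1 a2 a3 a4 a5 using h1
  have ht : Tendsto (fun n : ℕ => 1 / ((n : ℝ) + 1)) atTop (𝓝 0) :=
    tendsto_one_div_add_atTop_nhds_zero_nat
  have hu : Tendsto u atTop (𝓝 u₀) := by
    rw [tendsto_iff_dist_tendsto_zero]
    exact squeeze_zero (fun n => dist_nonneg) (fun n => by
      rw [Real.dist_eq]; exact (a2 n).le) ht
  have hy : Tendsto y atTop (𝓝 y₀) := by
    rw [tendsto_iff_dist_tendsto_zero]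
    exact squeeze_zero (fun n => dist_nonneg) (fun n => by
      rw [Real.dist_eq]; exact (a3 n).le) ht
  exact h y u ⟨hy, hu, a1⟩ a3 a5 a4

end Vale.Agent.P097.H74
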