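import Vale.Agent.P097.H6.Restr
import Vale.Agent.P097.H505.OneT
import Vale.Agent.P097.H365.N.Nst
import Vale.Agent.P097.H74.Box

/-!
# P097 / case [c] : no nested points near a point of the thin layer, from `PW`, `PAI`, `PT`

`Inst` : the world `A5.W5` and TOUCH at a point of the thin layer (rows W5-INST, TOUCH).
`noNestV_of` : for a level `v` without R2 points there is a box around the point of the layer without
nested points of level `v`.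
-/

set_option linter.all false

open Complex Metric Filter Topology Set MeasureTheory
open scoped ComplexConjugate

namespace Vale.Agent.P097.H74

open Vale.Agent.P097 Vale.Agent.P097.TA Vale.Agent.P097.H202 Vale.Agent.P097.SC
open Vale.Agent.P097.H85 Vale.Agent.P097.H929 Vale.Agent.P097.H543 Vale.Agent.P097.H456.C
open Vale.Agent.P097.H6 Vale.Agent.P097.TC Vale.Agent.P097.A5

/-- vertical limits on the walls at the label `u` -/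
def WallAt (b : ℝ) (R : ℂ → ℝ) (θ : ℂ × ℂ → ℂ) (n : ℤ) (y₁ y₂ u : ℝ) : Prop :=
  ∀ᵐ x : ℝ, x ∈ Ioo y₁ y₂ →
    Tendsto (fun η : ℝ => |(H505.Tu θ n u ((x : ℂ) + ((R u - η : ℝ) : ℂ) * I)).im|) (𝓝[>] 0) (𝓝 b)

/-- **rows W5-INST and TOUCH** -/
def Inst : Prop := ∀ {κ Λ b : ℝ} {H Φ : ℂ → ℂ} {r e : ℝ} {α p : ℂ → ℂ → ℂ} {J F q Q : ℂ → ℂ}
  {e₁ c₀ : ℝ} {R : ℂ → ℝ} {A P θ : ℂ × ℂ → ℂ}, 0 < e₁ → 0 < c₀ →
  CC.Base κ Λ b H Φ r e α p J F q Q e₁ c₀ R A P θ →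
  ∀ {n : ℤ} {ε b₀ m : ℝ} {Ψ : ℂ → ℂ} {S : Set ℝ} {Pt : ℝ → ℂ} {c k : ℝ → ℝ} {y₁ y₂ s s' : ℝ},
    GW R A P e₁ n ε b₀ m Ψ S Pt c k y₁ y₂ s s' →
    ∃ (K : ℝ) (al pp th : ℂ × ℂ → ℂ),
      (∀ z ∈ Wn R e₁ ε b₀ n, th z = Th θ n z) ∧
      ∀ {y₀ u₀ σ : ℝ}, σ ≤ s' →
        Lay (MM R A P e₁ ε b₀ n) (MM R A P e₁ ε b₀ (n - 1)) b₀ S Pt c y₀ u₀ σ s →
        W5 Λ b F q b₀ m Ψ (MM R A P e₁ ε b₀ n) (MM R A P e₁ ε b₀ (n - 1))
          (Wn R e₁ ε b₀ n ∩ Wne) S Pt c k K y₀ u₀ σ s al pp th J ∧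
        ∀ y u : ℕ → ℝ, Sq S y₀ u₀ y u → Tou b Pt c u₀ σ th y u

theorem ne_zero_of_irr {u : ℝ} (h : Irrational u) : (u : ℂ) ≠ 0 := by
  exact_mod_cast h.ne_zero

theorem mem_Wn_real {R : ℂ → ℝ} {A P : ℂ × ℂ → ℂ} {e₁ ε b₀ m : ℝ} {n : ℤ} {Ψ : ℂ → ℂ}
    {S : Set ℝ} {Pt : ℝ → ℂ} {c k : ℝ → ℝ} {y₁ y₂ s s' : ℝ}
    (G : GW R A P e₁ n ε b₀ m Ψ S Pt c k y₁ y₂ s s') {u : ℝ} (hu : u ∈ S) {t : ℂ} (h1 : b₀ < t.im)
    (h2 : t.im < R u) : (t, (u : ℂ)) ∈ Wn R e₁ ε b₀ n := by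
  have h3 : ‖(u : ℂ)‖ < e₁ := by
    rw [norm_real, Real.norm_eq_abs]; exact G.Se u hu
  have h4 : |((u : ℂ)).im| < ε := by
    rw [ofReal_im, abs_zero]; exact G.ε0
  constructor
  · refine ⟨h1, ?_, h3, h4⟩
    simpa using h2
  · refine ⟨h1, ?_, h3, h4⟩
    simpa using h2

/-- vertical limits on the walls, from the non existence of interior limits -/
theorem wallAt_of (hWl : H505.WallsAe)
    {κ Λ b : ℝ} {H Φ : ℂ → ℂ} {r e : ℝ} {α p : ℂ → ℂ → ℂ} {J F q Q : ℂ → ℂ}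
    {e₁ c₀ : ℝ} {R : ℂ → ℝ} {A P θ : ℂ × ℂ → ℂ} (he : 0 < e₁) (hc₀ : 0 < c₀)
    (hB : CC.Base κ Λ b H Φ r e α p J F q Q e₁ c₀ R A P θ)
    {n : ℤ} {ε b₀ m : ℝ} {Ψ : ℂ → ℂ} {S : Set ℝ} {Pt : ℝ → ℂ} {c k : ℝ → ℝ} {y₁ y₂ s s' : ℝ}
    (G : GW R A P e₁ n ε b₀ m Ψ S Pt c k y₁ y₂ s s') :
    ∀ᵐ u : ℝ, u ∈ S → WallAt b R θ n y₁ y₂ u := by
  filter_upwards [hWl he hc₀ hB G] with u hu huS
  have hue : |u| < e₁ := G.Se u huS
  have hRu : 0 < R u := G.b00.trans (G.bR u huS)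
  filter_upwards [hu huS, H505.tu_vlim (n := n) hB hue hRu] with x h1 h2 hx
  obtain ⟨L, hL⟩ := h2
  have h3 : ¬ |L| < b := h1 hx L hL
  have h4 : Tendsto (fun η : ℝ => |(H505.Tu θ n u ((x : ℂ) + ((R u - η : ℝ) : ℂ) * I)).im|)
      (𝓝[>] 0) (𝓝 |L|) := hL.abs
  have h5 : |L| ≤ b := by
    refine le_of_tendsto h4 ?_
    have h6 : Ioo (0 : ℝ) (R u) ∈ 𝓝[>] (0 : ℝ) := Ioo_mem_nhdsGT hRu
    filter_upwards [h6] with η hη
    refine (H505.tu_bd (n := n) hB hue ?_).le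
    have : ((x : ℂ) + ((R u - η : ℝ) : ℂ) * I).im = R u - η := by simp
    rw [this, abs_of_nonneg (by linarith [hη.2])]
    linarith [hη.1]
  rwa [le_antisymm h5 (not_lt.1 h3)] at h4

/-- **no nested points of one level** near a point of the layer -/
theorem noNestV_of (hI : Inst) (hWl : H505.WallsAe) (hW : PW) (hA : PAI) (hT : PT) :
    H505.NoNestV := by
  intro κ Λ b H Φ r e α p J F q Q e₁ c₀ R A P θ he hc₀ hB n ε b₀ m Ψ S Pt c k y₁ y₂ s s' G _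
    y₀ u₀ σ h1 h2 hσ L
  have hwall := wallAt_of hWl he hc₀ hB G
  obtain ⟨K, al, pp, th, hth, hinst⟩ := hI he hc₀ hB G
  obtain ⟨W, hTo⟩ := hinst hσ L
  obtain ⟨v, _, hv, hF⟩ := H365.N.exists_level (v₁ := -b) (v₂ := b) W.crv.cv
    (by linarith [W.crv.cv.b0]) le_rfl le_rfl
  refine ⟨v, hv, ?_⟩
  obtain ⟨C, hC, c₁, hc₁, hnst⟩ := H365.N.nst_of_nest W.crv.cv W.crv.Fp hv hF
  obtain ⟨Nl, hNl, hno⟩ := no_nest hW hA hT (Λ := Λ) (H := b) (F := F) (q := q) (b := b₀) (m := m)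
    (Ψ := Ψ) (Mj := MM R A P e₁ ε b₀ n) (Mk := MM R A P e₁ ε b₀ (n - 1))
    (B := Wn R e₁ ε b₀ n ∩ Wne) (A := S) (P := Pt) (c := c) (k := k) (K := K) (s := s)
    (al := al) (p := pp) (th := th) (J := J)
  have hae : ∀ᵐ u : ℝ, u ∈ S → u ∉ Nl ∧ WallAt b R θ n y₁ y₂ u := by
    filter_upwards [measure_eq_zero_iff_ae_notMem.1 hNl, hwall] with u a1 a2 a3
    exact ⟨a1, a2 a3⟩
  refine exists_box (N := fun u y => H505.Nest (H505.Tu θ n u) (R u) b y v)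
    hae fun y u hS _ hG hN => ?_
  -- the vertical slices
  have hbR : ∀ j, b₀ < R (u j) := fun j => G.bR _ (hS.uA j)
  have hPi : ∀ j, (Pt (u j)).im = R (u j) := fun j => G.Pi _ (hS.uA j)
  have hmem : ∀ j (t : ℂ), b₀ < t.im → t.im < R (u j) →
      (t, ((u j : ℝ) : ℂ)) ∈ Wn R e₁ ε b₀ n ∩ Wne := fun j t a1 a2 =>
    ⟨mem_Wn_real G (hS.uA j) a1 a2, ne_zero_of_irr (G.irr _ (hS.uA j))⟩
  have hDm : ∀ j (t : ℂ), b₀ < t.im → t.im < R (u j) → (t, ((u j : ℝ) : ℂ)) ∈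
      Dm (MM R A P e₁ ε b₀ n) (MM R A P e₁ ε b₀ (n - 1)) := fun j t a1 a2 =>
    ⟨⟨W.Bj (hmem j t a1 a2), W.Bk (hmem j t a1 a2)⟩, (hmem j t a1 a2).2⟩
  have hthe : ∀ j (t : ℂ), b₀ < t.im → t.im < R (u j) →
      th (t, ((u j : ℝ) : ℂ)) = H505.Tu θ n (u j) t := fun j t a1 a2 =>
    hth _ (hmem j t a1 a2).1
  have oDm : IsOpen (Dm (MM R A P e₁ ε b₀ n) (MM R A P e₁ ε b₀ (n - 1))) :=
    (W.rhj.dn.op.inter W.rhk.dn.op).inter (isOpen_ne.preimage continuous_snd)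
  have hsl : ∀ j, DifferentiableOn ℂ (fun t : ℂ => th (t, ((u j : ℝ) : ℂ)))
      {t : ℂ | b₀ < t.im ∧ t.im < R (u j)} := by
    intro j t ht
    have a1 : DifferentiableAt ℂ th (t, ((u j : ℝ) : ℂ)) :=
      W.dth.differentiableAt (oDm.mem_nhds (hDm j t ht.1 ht.2))
    have a2 : DifferentiableAt ℂ (fun t : ℂ => (t, ((u j : ℝ) : ℂ))) t :=
      differentiableAt_id.prodMk (differentiableAt_const _)
    exact (DifferentiableAt.comp t (f := fun t : ℂ => (t, ((u j : ℝ) : ℂ))) a1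
      a2).differentiableWithinAt
  have hNst : ∀ j, ∃ hj : ℝ, Nst b b₀ F Pt th C c₁ hj (y j) (u j) := by
    intro j
    have e1 := hPi j
    have e2 := hbR j
    have hN' : H505.Nest (fun t : ℂ => th (t, ((u j : ℝ) : ℂ))) (Pt (u j)).im b (y j) v := by
      intro η hη hηb
      obtain ⟨s₀, hs₀, a1⟩ := hN j η hη hηb
      refine ⟨min s₀ (R (u j) - b₀), lt_min hs₀ (by linarith), fun τ hτ => ?_⟩
      obtain ⟨x, a2, a3⟩ := a1 τ ⟨hτ.1, hτ.2.trans_le (min_le_left _ _)⟩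
      refine ⟨x, a2, ?_⟩
      have a4 : τ < R (u j) - b₀ := hτ.2.trans_le (min_le_right _ _)
      have a5 : ((x : ℂ) + ((R (u j) - τ : ℝ) : ℂ) * I).im = R (u j) - τ := by simp
      have a6 := hthe j ((x : ℂ) + ((R (u j) - τ : ℝ) : ℂ) * I) (by rw [a5]; linarith)
        (by rw [a5]; linarith [hτ.1])
      simp only at a3 ⊢
      rw [e1, a6]
      exact a3
    obtain ⟨hj, _, h4⟩ := hnst (b := b₀) (P := Pt) (th := th) (y := y j) (u := u j)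
      (by rw [e1]; exact e2) (by rw [e1]; exact hsl j)
      (fun t a1 a2 => W.mem _ (hDm j t a1 (by rw [← e1]; exact a2))) hN'
    exact ⟨hj, h4⟩
  choose hh hN1 using hNst
  refine hno W hS (fun y' u' hS' => hTo y' u' hS') (fun j => (hG j).1) hC hc₁ hN1
    (d := min (y₀ - y₁) (y₂ - y₀)) (lt_min (by linarith) (by linarith)) fun j => ?_
  filter_upwards [(hG j).2] with x hx hxd
  have b1 := abs_lt.1 (hxd.trans_le (min_le_left _ _))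
  have b2 := abs_lt.1 (hxd.trans_le (min_le_right _ _))
  have b3 := hx ⟨by linarith [b1.1], by linarith [b2.2]⟩
  refine b3.congr' ?_
  have b4 : Ioo (0 : ℝ) (R (u j) - b₀) ∈ 𝓝[>] (0 : ℝ) := Ioo_mem_nhdsGT (by linarith [hbR j])
  filter_upwards [b4] with τ hτ
  have a5 : ((x : ℂ) + ((R (u j) - τ : ℝ) : ℂ) * I).im = R (u j) - τ := by simp
  have a6 := hthe j ((x : ℂ) + ((R (u j) - τ : ℝ) : ℂ) * I) (by rw [a5]; linarith [hτ.2])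
    (by rw [a5]; linarith [hτ.1])
  show |(H505.Tu θ n (u j) ((x : ℂ) + ((R (u j) - τ : ℝ) : ℂ) * I)).im| =
    |(th (vp Pt x (u j) τ)).im|
  rw [vp, hPi j, a6]

end Vale.Agent.P097.H74
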